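import Vale.Agent.P032.Words6.H46.EncD

/-!
# P032: the chord condition for sets and for masks

`opB_of_OpM`: if the letters of `D` are the pairs of `M` then the chord condition for two sets of colours
gives the chord condition for their masks.
-/

namespace Vale.Agent.P032.Words6.H767

open Vale.Agent.P032.Words.Trie Vale.Agent.P032.Words6.H46

variable {f : Fin 6 → ℕ}

theorem testBit_code (s : Set (Fin 6)) (j : ℕ) :
    (code f s).testBit j = true ↔ j < 6 ∧ ∃ i ∈ s, f i = j := by
  classical
  unfold code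
  by_cases h : j < 6
  · rw [Nat.testBit_ofBits_lt _ _ h]; simp [h]
  · rw [Nat.testBit_ofBits_ge _ _ (by omega)]; simp [h]

theorem code_lt (s : Set (Fin 6)) : code f s < 64 := Nat.ofBits_lt_two_pow (n := 6) _

theorem testBit_code_f (hi : Function.Injective f) (hl : ∀ i, f i < 6) (s : Set (Fin 6)) (i : Fin 6) :
    (code f s).testBit (f i) = true ↔ i ∈ s := by
  rw [testBit_code]
  constructor
  · rintro ⟨-, j, hj, e⟩
    rwa [← hi e]
  · intro h
    exact ⟨hl i, i, h, rfl⟩

theorem exists_f (hi : Function.Injective f) (hl : ∀ i, f i < 6) {j : ℕ} (hj : j < 6) :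
    ∃ i, f i = j := by
  have h : Function.Surjective (fun i => (⟨f i, hl i⟩ : Fin 6)) :=
    Finite.surjective_of_injective (fun a b e => hi (Fin.mk.inj_iff.1 e))
  obtain ⟨i, e⟩ := h ⟨j, hj⟩
  exact ⟨i, Fin.mk.inj_iff.1 e⟩

theorem mask_ext (hi : Function.Injective f) (hl : ∀ i, f i < 6) {x y : ℕ} (hx : x < 64) (hy : y < 64)
    (h : ∀ i, x.testBit (f i) = true ↔ y.testBit (f i) = true) : x = y := by
  apply Nat.eq_of_testBit_eq
  intro j
  by_cases hj : j < 6
  · obtain ⟨i, rfl⟩ := exists_f hi hl hj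
    exact Bool.eq_iff_iff.2 (h i)
  · have h64 : 64 ≤ 2 ^ j := by
      calc 64 = 2 ^ 6 := by norm_num
        _ ≤ 2 ^ j := Nat.pow_le_pow_right (by norm_num) (by omega)
    rw [Nat.testBit_lt_two_pow (lt_of_lt_of_le hx h64), Nat.testBit_lt_two_pow (lt_of_lt_of_le hy h64)]

theorem testBit_63 {j : ℕ} (h : j < 6) : Nat.testBit 63 j = true := by
  interval_cases j <;> decide

theorem xor_lt {x y : ℕ} (hx : x < 64) (hy : y < 64) : Nat.xor x y < 64 :=
  Nat.xor_lt_two_pow (n := 6) hx hy

/-- the complement of a set -/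
theorem code_compl (hi : Function.Injective f) (hl : ∀ i, f i < 6) (s : Set (Fin 6)) :
    code f sᶜ = Nat.xor 63 (code f s) := by
  refine mask_ext hi hl (code_lt _) (xor_lt (by norm_num) (code_lt _)) fun i => ?_
  rw [testBit_code_f hi hl]
  change _ ↔ (63 ^^^ code f s).testBit (f i) = true
  rw [Nat.testBit_xor, testBit_63 (hl i)]
  by_cases h : i ∈ s
  · rw [(testBit_code_f hi hl s i).2 h]; simp [h]
  · have : (code f s).testBit (f i) = false := by
      rw [← Bool.not_eq_true, testBit_code_f hi hl]; exact h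
    rw [this]; simp [h]

/-- the two halves of a split -/
theorem code_split (hi : Function.Injective f) (hl : ∀ i, f i < 6) {P X Y : Set (Fin 6)}
    (hU : X ∪ Y = Pᶜ) (hd : Disjoint X Y) :
    Nat.xor (Nat.xor 63 (code f P)) (code f X) = code f Y := by
  rw [← code_compl hi hl]
  refine mask_ext hi hl (xor_lt (code_lt _) (code_lt _)) (code_lt _) fun i => ?_
  rw [testBit_code_f hi hl]
  change (code f Pᶜ ^^^ code f X).testBit (f i) = true ↔ _
  rw [Nat.testBit_xor, ← hU]
  by_cases hX : i ∈ X
  · have hY : i ∉ Y := fun h => Set.disjoint_left.1 hd hX h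
    rw [(testBit_code_f hi hl (X ∪ Y) i).2 (Or.inl hX), (testBit_code_f hi hl X i).2 hX]
    simp [hY]
  · have h1 : (code f X).testBit (f i) = false := by
      rw [← Bool.not_eq_true, testBit_code_f hi hl]; exact hX
    rw [h1, Bool.xor_false, testBit_code_f hi hl]
    simp [hX]

theorem code_ne_zero (hi : Function.Injective f) (hl : ∀ i, f i < 6) {X : Set (Fin 6)}
    (h : X.Nonempty) : code f X ≠ 0 := by
  obtain ⟨i, h⟩ := h
  intro e
  have := (testBit_code_f hi hl X i).2 h
  rw [e] at this
  simp at this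

theorem acr_code {D : Dat} {M : Fin 6 → Fin 6 → Prop} (E : Enc D f M) {X Y : Set (Fin 6)}
    (hd : Disjoint X Y) (hM : ∀ x ∈ X, ∀ y ∈ Y, M x y) : acr D.L (code f X) (code f Y) = true := by
  unfold acr
  rw [List.all_eq_true]
  intro i hi
  rw [List.all_eq_true]
  intro j hj
  obtain ⟨a, rfl⟩ := exists_f E.inj E.lt (List.mem_range.1 hi)
  obtain ⟨b, rfl⟩ := exists_f E.inj E.lt (List.mem_range.1 hj)
  by_cases hX : a ∈ X
  · by_cases hY : b ∈ Y
    · have hab : a ≠ b := fun e => Set.disjoint_left.1 hd hX (e ▸ hY)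
      have := (E.mem a b hab).1 (hM a hX b hY)
      rw [Bool.or_eq_true]
      exact Or.inr (List.contains_iff_mem.2 this)
    · have : (code f Y).testBit (f b) = false := by
        rw [← Bool.not_eq_true, testBit_code_f E.inj E.lt]; exact hY
      rw [this]; simp
  · have : (code f X).testBit (f a) = false := by
      rw [← Bool.not_eq_true, testBit_code_f E.inj E.lt]; exact hX
    rw [this]; simp

theorem spl_code {D : Dat} {M : Fin 6 → Fin 6 → Prop} (E : Enc D f M) {P X Y : Set (Fin 6)}
    (hU : X ∪ Y = Pᶜ) (hd : Disjoint X Y) (hX : X.Nonempty) (hY : Y.Nonempty)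
    (hM : ∀ x ∈ X, ∀ y ∈ Y, M x y) : spl D.L (code f P) (code f X) = true := by
  unfold spl
  rw [code_split E.inj E.lt hU hd, acr_code E hd hM]
  have h1 : Nat.land (code f X) (code f P) = 0 := by
    refine mask_ext E.inj E.lt (lt_of_le_of_lt (Nat.and_le_left) (code_lt X)) (by norm_num)
      fun i => ?_
    change (code f X &&& code f P).testBit (f i) = true ↔ _
    rw [Nat.testBit_and]
    constructor
    · intro h
      rw [Bool.and_eq_true] at h
      have hx := (testBit_code_f E.inj E.lt X i).1 h.1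
      have hp := (testBit_code_f E.inj E.lt P i).1 h.2
      have : i ∈ Pᶜ := hU ▸ Or.inl hx
      exact absurd hp this
    · intro h
      simp at h
  have h2 := code_ne_zero E.inj E.lt hX
  have h3 := code_ne_zero E.inj E.lt hY
  rw [h1]
  have e2 : Nat.beq (code f X) 0 = false := by
    rw [← Bool.not_eq_true]; intro h; exact h2 (Nat.eq_of_beq_eq_true h)
  have e3 : Nat.beq (code f Y) 0 = false := by
    rw [← Bool.not_eq_true]; intro h; exact h3 (Nat.eq_of_beq_eq_true h)
  rw [e2, e3]
  rfl

theorem of_spl {D : Dat} {M : Fin 6 → Fin 6 → Prop} (E : Enc D f M) {P : Set (Fin 6)} {x : ℕ}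
    (hx : x < 64) (h : spl D.L (code f P) x = true) :
    ∃ X Y : Set (Fin 6), X ∪ Y = Pᶜ ∧ Disjoint X Y ∧ X.Nonempty ∧ Y.Nonempty ∧
      ∀ x ∈ X, ∀ y ∈ Y, M x y := by
  unfold spl at h
  rw [← code_compl E.inj E.lt] at h
  rw [Bool.and_eq_true, Bool.and_eq_true, Bool.and_eq_true] at h
  obtain ⟨⟨⟨h1, h2⟩, h3⟩, h4⟩ := h
  have h1 : x &&& code f P = 0 := Nat.eq_of_beq_eq_true h1
  have h2 : x ≠ 0 := by
    rintro rfl
    simp at h2
  have h3 : code f Pᶜ ^^^ x ≠ 0 := by
    intro e
    have e' : Nat.xor (code f Pᶜ) x = 0 := e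
    rw [e'] at h3
    simp at h3
  have tx : ∀ i, x.testBit (f i) = true → i ∉ P := by
    intro i hxi hp
    have : (x &&& code f P).testBit (f i) = true := by
      rw [Nat.testBit_and, hxi, (testBit_code_f E.inj E.lt P i).2 hp]; rfl
    rw [h1] at this
    simp at this
  have ty : ∀ i, (code f Pᶜ ^^^ x).testBit (f i) = true ↔ i ∉ P ∧ ¬ x.testBit (f i) = true := by
    intro i
    rw [Nat.testBit_xor]
    by_cases hp : i ∈ P
    · have hxi : x.testBit (f i) = false := by
        rw [← Bool.not_eq_true]; intro h; exact tx i h hp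
      have hc : (code f Pᶜ).testBit (f i) = false := by
        rw [← Bool.not_eq_true, testBit_code_f E.inj E.lt]; simpa using hp
      rw [hxi, hc]; simp [hp]
    · have hc : (code f Pᶜ).testBit (f i) = true := (testBit_code_f E.inj E.lt _ i).2 hp
      rw [hc]
      cases x.testBit (f i) <;> simp [hp]
  refine ⟨{i | x.testBit (f i) = true}, {i | (code f Pᶜ ^^^ x).testBit (f i) = true}, ?_, ?_, ?_, ?_,
    ?_⟩
  · ext i
    simp only [Set.mem_union, Set.mem_ofPred_eq, Set.mem_compl_iff]
    rw [ty i]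
    constructor
    · rintro (h | h)
      · exact tx i h
      · exact h.1
    · intro hp
      by_cases hxi : x.testBit (f i) = true
      · exact Or.inl hxi
      · exact Or.inr ⟨hp, hxi⟩
  · rw [Set.disjoint_left]
    intro i hxi hyi
    exact ((ty i).1 hyi).2 hxi
  · by_contra hne
    apply h2
    refine mask_ext E.inj E.lt hx (by norm_num) fun i => ?_
    constructor
    · intro h
      exact absurd ⟨i, h⟩ hne
    · intro h
      simp at h
  · by_contra hne
    apply h3
    refine mask_ext E.inj E.lt (xor_lt (code_lt _) hx) (by norm_num) fun i => ?_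
    constructor
    · intro h
      exact absurd ⟨i, h⟩ hne
    · intro h
      simp at h
  · intro a ha b hb
    unfold acr at h4
    have h5 := List.all_eq_true.1 (List.all_eq_true.1 h4 (f a) (List.mem_range.2 (E.lt a))) (f b)
      (List.mem_range.2 (E.lt b))
    have ha' : x.testBit (f a) = true := ha
    have hb' : (Nat.xor (code f Pᶜ) x).testBit (f b) = true := hb
    rw [ha', hb'] at h5
    have hab : a ≠ b := by
      rintro rfl
      exact ((ty a).1 hb).2 ha
    exact (E.mem a b hab).2 (List.contains_iff_mem.1 (by simpa using h5))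

/-- `DcM` in masks -/
theorem dcB_of_DcM {D : Dat} {M : Fin 6 → Fin 6 → Prop} (E : Enc D f M) {P : Set (Fin 6)} {l m : Fin 6}
    (h : DcM M P l m) : dcB D.L (code f P) (f l) (f m) = true := by
  unfold dcB
  by_cases hs : (List.range 64).any (spl D.L (code f P)) = true
  · obtain ⟨x, hx, hspl⟩ := List.any_eq_true.1 hs
    obtain ⟨X, Y, hU, hd, hM, hlX, hmY⟩ := h (of_spl E (List.mem_range.1 hx) hspl)
    rw [Bool.or_eq_true]
    refine Or.inr (List.any_eq_true.2 ⟨code f X, List.mem_range.2 (code_lt X), ?_⟩)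
    rw [spl_code E hU hd ⟨l, hlX⟩ ⟨m, hmY⟩ hM, (testBit_code_f E.inj E.lt X l).2 hlX,
      code_split E.inj E.lt hU hd, (testBit_code_f E.inj E.lt Y m).2 hmY]
    rfl
  · rw [Bool.not_eq_true] at hs
    rw [hs]
    rfl

/-- `OpM` in masks -/
theorem opB_of_OpM {D : Dat} {M : Fin 6 → Fin 6 → Prop} (E : Enc D f M) {P Q : Set (Fin 6)}
    (h : OpM M P Q) : opB D.L (code f P) (code f Q) = true := by
  obtain ⟨l, m, hlP, hlQ, hmP, hmQ, h1, h2⟩ := h
  unfold opB
  refine List.any_eq_true.2 ⟨f l, List.mem_range.2 (E.lt l), List.any_eq_true.2 ⟨f m,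
    List.mem_range.2 (E.lt m), ?_⟩⟩
  have e1 : (code f P).testBit (f l) = false := by
    rw [← Bool.not_eq_true, testBit_code_f E.inj E.lt]; exact hlP
  have e2 : (code f Q).testBit (f l) = false := by
    rw [← Bool.not_eq_true, testBit_code_f E.inj E.lt]; exact hlQ
  have e3 : (code f P).testBit (f m) = false := by
    rw [← Bool.not_eq_true, testBit_code_f E.inj E.lt]; exact hmP
  have e4 : (code f Q).testBit (f m) = false := by
    rw [← Bool.not_eq_true, testBit_code_f E.inj E.lt]; exact hmQ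
  rw [e1, e2, e3, e4, dcB_of_DcM E h1, dcB_of_DcM E h2]
  rfl

end Vale.Agent.P032.Words6.H767
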